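import Vale.Agent.P025.R2.H440.Defs
import Vale.Agent.P025.H641.Geo

/-! # The context of a section over a finite extension of the constants -/

open IntermediateField Polynomial

namespace P025H206

open P025H641 P025H440

universe u v w

section const

variable {p : ℕ} [Fact p.Prime] {k : Type u} [Field k] [Algebra ℚ_[p] k] {k' : Type w}
  [Field k'] [Algebra ℚ_[p] k'] [FiniteDimensional ℚ_[p] k'] [Algebra k k']
  [IsScalarTower ℚ_[p] k k'] {M : Type v} [Field M] [Algebra k M] [Algebra k' M]
  [IsScalarTower k k' M] {O : ValuationSubring M}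

/-- the valuation ring `O` extends the valuation ring of `k'` if it extends that of `k` -/
lemma const_iff (hconst : ∀ c : k, algebraMap k M c ∈ O ↔ spectralNorm ℚ_[p] k c ≤ 1)
    (c : k') : algebraMap k' M c ∈ O ↔ spectralNorm ℚ_[p] k' c ≤ 1 := by
  have hpp : p.Prime := Fact.out
  have hQ : ∀ x : ℚ_[p], algebraMap k' M (algebraMap ℚ_[p] k' x) ∈ O ↔ ‖x‖ ≤ 1 := by
    intro x
    rw [IsScalarTower.algebraMap_apply ℚ_[p] k k', ← IsScalarTower.algebraMap_apply k k' M,
      hconst, spectralNorm_extends]
  let inst1 : NontriviallyNormedField k' := spectralNorm.nontriviallyNormedField ℚ_[p] k'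
  have hn : ∀ x : ℚ_[p], ‖algebraMap ℚ_[p] k' x‖ = ‖x‖ := fun x => spectralNorm_extends x
  have hle : ∀ x : k', ‖x‖ ≤ 1 → algebraMap k' M x ∈ O := by
    intro x hx
    have hx' : spectralValue (minpoly ℚ_[p] x) ≤ 1 := hx
    have hint : IsIntegral ℚ_[p] x := Algebra.IsIntegral.isIntegral x
    have hmon := minpoly.monic hint
    rw [spectralValue_le_one_iff hmon] at hx'
    -- the polynomial over `O`
    have hcoef : ∀ i, algebraMap k' M (algebraMap ℚ_[p] k' ((minpoly ℚ_[p] x).coeff i)) ∈ O :=
      fun i => (hQ _).2 (hx' i)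
    set P : M[X] := (minpoly ℚ_[p] x).map ((algebraMap k' M).comp (algebraMap ℚ_[p] k')) with hP
    have hlift : P ∈ Polynomial.lifts (algebraMap O M) := by
      rw [Polynomial.lifts_iff_coeff_lifts]
      intro i
      rw [hP, coeff_map]
      exact ⟨⟨_, hcoef i⟩, rfl⟩
    obtain ⟨Q, hQP, -, hQm⟩ := Polynomial.lifts_and_degree_eq_and_monic hlift (hmon.map _)
    have h1 : IsIntegral O (algebraMap k' M x) := by
      refine ⟨Q, hQm, ?_⟩
      rw [eval₂_eq_eval_map, hQP, hP, ← Polynomial.map_map, eval_map, eval₂_at_apply,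
        eval_map_algebraMap, minpoly.aeval, map_zero]
    obtain ⟨z, hz⟩ := IsIntegrallyClosed.isIntegral_iff.mp h1
    rw [← hz]
    exact z.2
  constructor
  · intro hc
    show ‖c‖ ≤ 1
    by_contra hcon
    rw [not_le] at hcon
    have hp0 : (0 : ℝ) < ‖(p : k')‖ := by
      rw [← map_natCast (algebraMap ℚ_[p] k'), hn, norm_pos_iff]
      exact_mod_cast hpp.ne_zero
    have hc0 : c ≠ 0 := by
      rintro rfl
      rw [norm_zero] at hcon
      linarith
    obtain ⟨N, hN⟩ := exists_pow_lt_of_lt_one hp0 (inv_lt_one_of_one_lt₀ hcon)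
    have hu : ‖(c⁻¹) ^ N / p‖ ≤ 1 := by
      rw [norm_div, norm_pow, norm_inv, div_le_one hp0]
      exact hN.le
    have h1 := hle _ hu
    have h2 := mul_mem h1 (pow_mem hc N)
    rw [← map_pow, ← map_mul] at h2
    have h3 : (c⁻¹) ^ N / (p : k') * c ^ N = algebraMap ℚ_[p] k' (p : ℚ_[p])⁻¹ := by
      rw [map_inv₀, map_natCast, inv_pow]
      field_simp
    rw [h3, hQ, norm_inv] at h2
    have h4 : ‖(p : ℚ_[p])‖ < 1 := Padic.norm_p_lt_one
    have h5 : (0 : ℝ) < ‖(p : ℚ_[p])‖ := by
      rw [norm_pos_iff]; exact_mod_cast hpp.ne_zero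
    rw [inv_le_one₀ h5] at h2
    linarith
  · exact hle c

end const

section base

variable {k : Type u} {K : Type v} [Field k] [CharZero k] [Field K] [Algebra k K]
  {s : Gal(constClosure k K/k) →* Gal(maxUnr k K/K)} (k' : Type w) [Field k'] [Algebra k k']
  [Algebra k' (maxUnr k K)] [IsScalarTower k k' (maxUnr k K)]

/-- the subgroup fixing the constants `k'` -/
noncomputable def fixC (s : Gal(constClosure k K/k) →* Gal(maxUnr k K/K)) :
    Subgroup Gal(constClosure k K/k) :=
  ⨅ c : k', stabS s (algebraMap k' (maxUnr k K) c)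

omit [CharZero k] [Algebra k k'] [IsScalarTower k k' (maxUnr k K)] in
lemma mem_fixC {σ : Gal(constClosure k K/k)} : σ ∈ fixC k' s ↔
    ∀ c : k', s σ (algebraMap k' (maxUnr k K) c) = algebraMap k' (maxUnr k K) c := by
  rw [fixC, Subgroup.mem_iInf]
  rfl

lemma base_fixC [Algebra.IsAlgebraic k k'] (hs : IsSection k K s) : Base s (fixC k' s) k' where
  closed := by
    rw [fixC, Subgroup.coe_iInf]
    exact isClosed_iInter (fun c => isClosed_stabS hs _)
  alg := fun c => by
    have h : IsIntegral k c := (Algebra.IsAlgebraic.isAlgebraic c).isIntegral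
    exact h.algebraMap
  fix := fun c σ hσ => (mem_fixC k').1 hσ c
  ex := by
    intro y halg hy
    have hmem : ∀ z : maxUnr k K, IsIntegral k z → (z : AlgebraicClosure K) ∈ constClosure k K :=
      fun z hz => mem_algebraicClosure_iff.2 (isIntegral_coe.2 hz).isAlgebraic
    have hint : ∀ c : k', IsIntegral k (algebraMap k' (maxUnr k K) c) := fun c => by
      have h : IsIntegral k c := (Algebra.IsAlgebraic.isAlgebraic c).isIntegral
      exact h.algebraMap
    let jr : k' →+* constClosure k K :=
      ((algebraMap (maxUnr k K) (AlgebraicClosure K)).comp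
        (algebraMap k' (maxUnr k K))).codRestrict (constClosure k K).toSubfield.toSubring
          (fun c => hmem _ (hint c))
    let j : k' →ₐ[k] constClosure k K :=
      { jr with
        commutes' := fun c => by
          apply Subtype.ext
          show ((algebraMap k' (maxUnr k K) (algebraMap k k' c) : maxUnr k K) :
            AlgebraicClosure K) = _
          rw [← IsScalarTower.algebraMap_apply]
          rfl }
    have hj : ∀ c, ((j c : constClosure k K) : AlgebraicClosure K) =
      ((algebraMap k' (maxUnr k K) c : maxUnr k K) : AlgebraicClosure K) := fun _ => rfl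
    set L : IntermediateField k (constClosure k K) := j.fieldRange with hL
    set yC : constClosure k K := ⟨y, hmem y halg⟩ with hyC
    have h1 : ∀ σ ∈ L.fixingSubgroup, σ ∈ fixC k' s := by
      intro σ hσ
      rw [mem_fixC]
      intro c
      rw [IntermediateField.mem_fixingSubgroup_iff] at hσ
      have h2 := hσ (j c) ⟨c, rfl⟩
      have h3 := hs.lifts σ (j c) _ (hj c)
      rw [h2, hj] at h3
      exact Subtype.ext h3.symm
    have h2 : yC ∈ IntermediateField.fixedField L.fixingSubgroup := by
      rw [IntermediateField.mem_fixedField_iff]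
      intro σ hσ
      have h3 := hs.lifts σ yC y rfl
      rw [hy σ (h1 σ hσ)] at h3
      exact Subtype.ext h3
    rw [InfiniteGalois.fixedField_fixingSubgroup] at h2
    obtain ⟨c, hc⟩ := h2
    refine ⟨c, Subtype.ext ?_⟩
    rw [← hj]
    exact congrArg (fun z : constClosure k K => (z : AlgebraicClosure K)) hc

/-- the constants of `k'` lie in a finite unramified extension -/
lemma exists_fin [FiniteDimensional k k'] :
    ∃ F : IntermediateField K (AlgebraicClosure K), IsFinUnr k F ∧
      ∀ c : k', ((algebraMap k' (maxUnr k K) c : maxUnr k K) : AlgebraicClosure K) ∈ F := by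
  classical
  let b := Module.finBasis k k'
  obtain ⟨F, hF, hmem⟩ := exists_finUnr_subset (k := k) (K := K)
    (Finset.univ.image (fun i => ((algebraMap k' (maxUnr k K) (b i) : maxUnr k K) :
      AlgebraicClosure K))) (by
      intro x hx
      obtain ⟨i, -, rfl⟩ := Finset.mem_image.1 hx
      exact (algebraMap k' (maxUnr k K) (b i)).2)
  refine ⟨F, hF, fun c => ?_⟩
  have h1 : c = ∑ i, b.repr c i • b i := (b.sum_repr c).symm
  rw [h1, map_sum]
  have h2 : ((∑ i, algebraMap k' (maxUnr k K) (b.repr c i • b i) : maxUnr k K) :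
      AlgebraicClosure K) = ∑ i, ((algebraMap k' (maxUnr k K) (b.repr c i • b i) : maxUnr k K) :
      AlgebraicClosure K) := by
    exact map_sum (algebraMap (maxUnr k K) (AlgebraicClosure K)) _ _
  rw [h2]
  refine sum_mem (fun i _ => ?_)
  rw [Algebra.smul_def, map_mul, ← IsScalarTower.algebraMap_apply k k' (maxUnr k K)]
  refine mul_mem (S := IntermediateField K (AlgebraicClosure K)) ?_
    (hmem _ (Finset.mem_image_of_mem _ (Finset.mem_univ i)))
  exact F.algebraMap_mem (algebraMap k K (b.repr c i))

end base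

end P025H206
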