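import Vale.Agent.P025.H641.GeoStmt

/-! # Valuative sections: the definitions of the hand-in -/

open IntermediateField

namespace P025H206

open P025H641

universe u v

variable {k : Type u} {K : Type v} [Field k] [Field K] [Algebra k K]

/-- the valuation ring `O` of the maximal unramified extension lies above the ring of integers
of the `p`-adic field `k` -/
def IsOverIntegers (p : ℕ) [Fact p.Prime] [Algebra ℚ_[p] k] (O : ValuationSubring (maxUnr k K)) :
    Prop :=
  ∀ c : k, algebraMap k (maxUnr k K) c ∈ O ↔ spectralNorm ℚ_[p] k c ≤ 1

/-- the image of the section `s` stabilizes the valuation ring `O` -/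
def Stabilizes (s : Section k K) (O : ValuationSubring (maxUnr k K)) : Prop :=
  ∀ (σ : GalOf (constClosure k K)) (x y : maxUnr k K), (s.hom σ).Maps x y → x ∈ O → y ∈ O

/-- the image of the section `s` stabilizes a valuation ring above the ring of integers of the
`p`-adic field `k` -/
def IsValuative (p : ℕ) [Fact p.Prime] [Algebra ℚ_[p] k] (s : Section k K) : Prop :=
  ∃ O : ValuationSubring (maxUnr k K), IsOverIntegers p O ∧ Stabilizes s O

end P025H206
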