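import Vale.Agent.P025.R2.H440.ZoomStep
import Vale.Agent.P025.R2.H722.Index
import Vale.Agent.P025.R2.H722.Initial
import Vale.Agent.P025.R2.H281.Small
import Vale.Agent.P025.R2.H907.A3Core

/-! # Assembly A3 and the glue of the bounded case -/

open IntermediateField Polynomial

namespace P025H206

open P025H641 P025H440 P025H907

universe u v w

section ctx

variable {p : ℕ} [Fact p.Prime] {k : Type u} {K : Type v} [Field k] [Field K] [Algebra k K]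
  [CharZero k] {s : Gal(constClosure k K/k) →* Gal(maxUnr k K/K)}
  {G : Subgroup Gal(constClosure k K/k)} {k' : Type w} [Field k'] [CharZero k']
  [Algebra k' (maxUnr k K)] [Algebra ℚ_[p] k'] [FiniteDimensional ℚ_[p] k']
  {O : ValuationSubring (maxUnr k K)}

/-- A3: all scales (uses `Ctx.zoom` and `scale_all`) -/
theorem Ctx.exists_scale (h : Ctx p s G k' O) (hp2 : p ≠ 2) {n m : ℕ} (hn : 3 ≤ n)
    (hpn : ¬ p ∣ 2 * n - 1) (hm : 0 < m) (hm1 : (n + 1) ∣ m) (hm2 : (2 * n - 1) ∣ m) (a b : ℕ)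
    (ha : 2 ≤ a) (hna : p ^ (a + 2) ∣ n.centralBinom) (hb : 2 * n ^ 2 ≤ b) (t : maxUnr k K)
    (ht : IsState s G k' O t)
    (hRD : RDs p (Cusp k' m t) ((p : ℝ) ^ a)⁻¹ 1 ((p : ℝ) ^ b)) (ρ : ℝ) (hρ : 0 < ρ) :
    ∃ t' : maxUnr k K, IsState s G k' O t' ∧ O.valuation t' = O.valuation t ∧
      RDs p (Cusp k' m t') ((p : ℝ) ^ a)⁻¹ ρ ((p : ℝ) ^ b) :=
  exists_scale_of_zoom hp2 hn hpn a b ha hna hb
    (fun t ht b₁ b₂ b₃ κ h₁ h₂ h₃ hne hκ hle hlt =>
      h.zoom (by omega) hpn hm hm1 hm2 t ht b₁ b₂ b₃ κ h₁ h₂ h₃ hne hκ hle hlt) t ht hRD ρ hρ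

end ctx

/-- A: the bounded case is impossible. The constants `N`, `m` depend only on `p`, `k'`. -/
theorem bounded_contra {p : ℕ} [Fact p.Prime] (hp2 : p ≠ 2) (k' : Type w) [Field k']
    [CharZero k'] [Algebra ℚ_[p] k'] [FiniteDimensional ℚ_[p] k'] {ζ : k'}
    (hζ : IsPrimitiveRoot ζ p) : ∃ N m : ℕ, 0 < m ∧
    ∀ {k : Type u} {K : Type v} [Field k] [Field K] [Algebra k K] [CharZero k]
      {s : Gal(constClosure k K/k) →* Gal(maxUnr k K/K)}
      {G : Subgroup Gal(constClosure k K/k)} [Algebra k' (maxUnr k K)]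
      {O : ValuationSubring (maxUnr k K)} (_ : Ctx p s G k' O) (T : maxUnr k K)
      (_ : ∀ σ ∈ G, s σ T = T) (_ : ∀ c : k', T ≠ algebraMap k' (maxUnr k K) c)
      (_ : ∀ x : maxUnr k K, x ≠ 0 → ∃ N : ℕ, O.valuation (p : maxUnr k K) ^ N ≤ O.valuation x)
      (_ : (0 : k') ∈ Cusp k' m T)
      (_ : ∀ x : k', spectralNorm ℚ_[p] k' x ≤ (p : ℝ) ^ N → ∃ b ∈ Cusp k' m T,
        spectralNorm ℚ_[p] k' (x - b) ≤ ((p : ℝ) ^ N)⁻¹), False := by
  have hp : p.Prime := Fact.out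
  set a : ℕ := precision (Module.finrank ℚ_[p] k') 5 + 9 with ha
  obtain ⟨n, hn, hpn, hna⟩ := exists_zoom_index hp hp2 (a + 2)
  set b : ℕ := 2 * n ^ 2 + 7 with hb
  have hm : 0 < p * ((n + 1) * (2 * n - 1)) :=
    Nat.mul_pos hp.pos (Nat.mul_pos (Nat.succ_pos n) (by omega))
  refine ⟨a + 2 * b + 1, p * ((n + 1) * (2 * n - 1)), hm, ?_⟩
  intro k K _ _ _ _ s G _ O h T hfix hconst hbdd h0 hdense
  obtain ⟨t, ht, ht0, ht1, hRD⟩ := h.exists_initial hm a b (a + 2 * b + 1) (by omega) le_rfl T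
    hfix hconst h0 hdense
  obtain ⟨N₀, hN₀⟩ := hbdd t ht0
  refine P025H281.scale_contra h hp2 hζ hm (dvd_mul_right p _) a b (by omega) (by omega) (O.valuation t)
    ht1 N₀ hN₀ ?_
  intro ρ hρ
  exact Ctx.exists_scale h hp2 hn hpn hm
    (dvd_mul_of_dvd_right (dvd_mul_right _ _) _) (dvd_mul_of_dvd_right (dvd_mul_left _ _) _)
    a b (by omega) hna (by omega) t ht hRD ρ hρ

end P025H206
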