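import Vale.Agent.P025.R2.H206.Ext
import Vale.Agent.P025.H641.PlcGen

/-! # Cusps at the constants of a sufficiently ramified extension -/

open IntermediateField Polynomial

namespace P025H206

open P025H641 P025H440

universe u v w x

section place

variable {k : Type u} {E : Type v} {K : Type w} {F : Type x} {k' : Type*} [Field k] [CharZero k]
  [Field E] [Field K] [Field F] [Field k'] [Algebra k E] [Algebra k K] [Algebra k F]
  [Algebra k k'] [Algebra k' F] [Algebra E K] [Algebra K F] [Algebra E F] [IsScalarTower k E K]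
  [IsScalarTower k K F] [IsScalarTower k E F] [IsScalarTower E K F] [IsScalarTower k k' F]
  [Algebra.IsAlgebraic K F] [Algebra.IsAlgebraic k k']

/-- `T - b` has value divisible by `m` at all places if `K` is ramified over the divisors of `T`
and of the value at `T` of the minimal polynomial of the constant `b` -/
lemma isDivisible_sub_const {m : ℕ} {S : Finset E} (hS : IsRamifiedOver m k K S) (T : E)
    (hT : T ∈ S) (b : k') (hbS : aeval T (minpoly k b) ∈ S) :
    IsDivisible m k (algebraMap E F T - algebraMap k' F b) := by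
  have hb : IsIntegral k b := (Algebra.IsAlgebraic.isAlgebraic b).isIntegral
  intro W hW
  have hV := hW.comap (F := K)
  set V := W.comap (algebraMap K F) with hVdef
  have hdesc : ∀ g ∈ S, W.valuation (algebraMap E F g) ≠ 1 →
      ∃ y : F, W.valuation (algebraMap E F g) = W.valuation y ^ m := by
    intro g hg hne
    have h1 : V.valuation (algebraMap E K g) ≠ 1 := by
      intro h1
      apply hne
      rw [← map_one V.valuation, hVdef, comap_val_eq_iff, map_one, map_one,
        ← IsScalarTower.algebraMap_apply] at h1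
      exact h1
    obtain ⟨y, hy⟩ := hS V hV ⟨g, hg, h1⟩ g
    refine ⟨algebraMap K F y, ?_⟩
    rw [← map_pow, hVdef, comap_val_eq_iff, ← IsScalarTower.algebraMap_apply] at hy
    rw [hy, map_pow, map_pow]
  have hbF : IsIntegral k (algebraMap k' F b) := hb.algebraMap
  have hcW : ∀ c : k', IsIntegral k c → algebraMap k' F c ∈ W := fun c hc =>
    hW.mem_of_isIntegral hc.algebraMap
  have hb1 : W.valuation (algebraMap k' F b) ≤ 1 := (W.valuation_le_one_iff _).2 (hcW b hb)
  set t : F := algebraMap E F T with ht
  by_cases h1 : 1 < W.valuation t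
  · obtain ⟨y, hy⟩ := hdesc T hT h1.ne'
    refine ⟨y, ?_⟩
    rw [← hy]
    rw [Valuation.map_sub_swap]
    exact Valuation.map_sub_eq_of_lt_right _ (lt_of_le_of_lt hb1 h1)
  rw [not_lt] at h1
  have h2 : W.valuation (t - algebraMap k' F b) ≤ 1 :=
    (Valuation.map_sub _ _ _).trans (max_le h1 hb1)
  rcases h2.lt_or_eq with h2 | h2
  swap
  · exact ⟨1, by rw [h2, map_one, one_pow]⟩
  -- the value of the minimal polynomial at `T`
  set f := minpoly k b with hf
  have hmon : f.Monic := minpoly.monic hb
  obtain ⟨q, hq⟩ : (X - C b) ∣ f.map (algebraMap k k') := by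
    rw [dvd_iff_isRoot, IsRoot.def, eval_map_algebraMap]
    exact minpoly.aeval k b
  have hqint : ∀ i, IsIntegral k (q.coeff i) := fun i =>
    (Algebra.IsAlgebraic.isAlgebraic _).isIntegral
  have hqb : q.eval b ≠ 0 := by
    have hsep : f.Separable := (minpoly.irreducible hb).separable
    have h3 := hsep.aeval_derivative_ne_zero (minpoly.aeval k b)
    have h4 : aeval b (derivative f) = q.eval b := by
      rw [← eval_map_algebraMap, ← derivative_map, hq, derivative_mul]
      simp
    rwa [h4] at h3
  have hfT : algebraMap E F (aeval T f) = (t - algebraMap k' F b) * (q.map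
      (algebraMap k' F)).eval t := by
    rw [← aeval_algebraMap_apply, ← ht, ← eval_map_algebraMap,
      IsScalarTower.algebraMap_eq k k' F, ← Polynomial.map_map, hq, Polynomial.map_mul,
      eval_mul]
    simp
  -- `q(T)` is a unit
  have htW : t ∈ W := (W.valuation_le_one_iff _).1 h1
  have hqW : ∀ i, (q.map (algebraMap k' F)).coeff i ∈ W := by
    intro i
    rw [coeff_map]
    exact hcW _ (hqint i)
  have hlift : q.map (algebraMap k' F) ∈ Polynomial.lifts (algebraMap W F) := by
    rw [Polynomial.lifts_iff_coeff_lifts]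
    intro i
    exact ⟨⟨_, hqW i⟩, rfl⟩
  obtain ⟨Q, hQ⟩ := (Polynomial.mem_lifts _).1 hlift
  have heval : ∀ z : W, (q.map (algebraMap k' F)).eval (z : F) = ((Q.eval z : W) : F) := by
    intro z
    rw [← hQ]
    rw [eval_map]
    exact eval₂_at_apply (algebraMap W F) z
  have hqt : W.valuation ((q.map (algebraMap k' F)).eval t) = 1 := by
    have h3 : (⟨t, htW⟩ : W) - ⟨_, hcW b hb⟩ ∣ Q.eval ⟨t, htW⟩ - Q.eval ⟨_, hcW b hb⟩ :=
      sub_dvd_eval_sub _ _ Q
    obtain ⟨r, hr⟩ := h3
    have h4 : (q.map (algebraMap k' F)).eval t = algebraMap k' F (q.eval b) +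
        (t - algebraMap k' F b) * r := by
      have h5 := congrArg (fun z : W => (z : F)) hr
      have h6 := heval ⟨t, htW⟩
      have h7 := heval ⟨_, hcW b hb⟩
      simp only at h6 h7
      rw [h6]
      have h8 : algebraMap k' F (q.eval b) = ((Q.eval ⟨_, hcW b hb⟩ : W) : F) := by
        rw [← h7, eval_map, eval₂_at_apply]
      rw [h8]
      have h9 : ((Q.eval ⟨t, htW⟩ : W) : F) - ((Q.eval ⟨_, hcW b hb⟩ : W) : F) =
        (t - algebraMap k' F b) * r := h5
      rw [← h9]
      ring
    have hqbint : IsIntegral k (q.eval b) := by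
      rw [eval_eq_sum_range]
      exact IsIntegral.sum _ (fun i _ => (hqint i).mul (hb.pow i))
    have h5 : W.valuation (algebraMap k' F (q.eval b)) = 1 :=
      hW.val_alg hqbint.algebraMap ((_root_.map_ne_zero _).2 hqb)
    rw [h4, Valuation.map_add_eq_of_lt_left, h5]
    rw [h5, map_mul]
    exact mul_lt_one_of_lt_of_le h2 ((W.valuation_le_one_iff _).2 r.2)
  have hval : W.valuation (algebraMap E F (aeval T f)) = W.valuation (t - algebraMap k' F b) := by
    rw [hfT, map_mul, hqt, mul_one]
  obtain ⟨y, hy⟩ := hdesc _ hbS (by rw [hval]; exact h2.ne)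
  exact ⟨y, by rw [← hval, hy]⟩

end place

section cusp

variable {k : Type u} {E : Type v} {K : Type w} {k' : Type*} [Field k] [CharZero k]
  [Field E] [Field K] [Field k'] [Algebra k E] [Algebra k K] [Algebra E K] [IsScalarTower k E K]
  [Algebra k k'] [FiniteDimensional k k'] [Algebra k' (maxUnr k K)]
  [IsScalarTower k k' (maxUnr k K)]

/-- `b` is a full cusp of `T` -/
lemma mem_cusp {m : ℕ} (hm : 0 < m) {S : Finset E} (hS : IsRamifiedOver m k K S) (T : E)
    (hT : T ∈ S) (b : k') (hbS : aeval T (minpoly k b) ∈ S) :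
    b ∈ Cusp k' m (algebraMap K (maxUnr k K) (algebraMap E K T)) := by
  obtain ⟨F, hF, hmem⟩ := exists_fin (k := k) (K := K) k'
  let φ : k' →+* F := ((algebraMap (maxUnr k K) (AlgebraicClosure K)).comp
    (algebraMap k' (maxUnr k K))).codRestrict F.toSubfield.toSubring hmem
  let _ : Algebra k' F := φ.toAlgebra
  have ht1 : IsScalarTower k k' F := IsScalarTower.of_algebraMap_eq (fun c => by
    apply Subtype.ext
    show _ = ((algebraMap k' (maxUnr k K) (algebraMap k k' c) : maxUnr k K) :
      AlgebraicClosure K)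
    rw [← IsScalarTower.algebraMap_apply]
    rfl)
  let _ : Algebra E F := ((algebraMap K F).comp (algebraMap E K)).toAlgebra
  have ht2 : IsScalarTower E K F := IsScalarTower.of_algebraMap_eq (fun c => rfl)
  have ht3 : IsScalarTower k E F := IsScalarTower.of_algebraMap_eq (fun c => by
    rw [IsScalarTower.algebraMap_apply E K F, ← IsScalarTower.algebraMap_apply k E K]
    rfl)
  have halg : Algebra.IsAlgebraic K F := by
    have := hF.1
    infer_instance
  have hdiv := isDivisible_sub_const (F := F) hS T hT b hbS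
  have hmk : (m : k) ≠ 0 := by exact_mod_cast hm.ne'
  set t : F := algebraMap E F T - algebraMap k' F b with ht
  obtain ⟨w, hw⟩ := IsAlgClosed.exists_pow_nat_eq (t : AlgebraicClosure K) hm
  obtain ⟨F', hF', -, hwF⟩ := hF.exists_root hmk w t hw hdiv
  refine ⟨⟨w, hF'.le_maxUnr hwF⟩, ?_⟩
  apply Subtype.ext
  show w ^ m = _
  rw [hw]
  rfl

end cusp

end P025H206
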