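import Vale.Agent.P025.R2.H440.Defs
import Vale.Agent.P025.H641.Geo

/-! # Unbounded stable valuation rings are geometric -/

open IntermediateField Polynomial
open scoped algebraAdjoinAdjoin

namespace P025H206

open P025H641

universe u v w

section field

variable {k : Type u} {E : Type v} [Field k] [Field E] [Algebra k E]

/-- a function field of one variable is algebraic over the field generated by a transcendental
element -/
lemma isAlgebraic_adjoin_of_transcendental (hE : IsFunctionField k E) {f : E}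
    (hf : Transcendental k f) : Algebra.IsAlgebraic k⟮f⟯ E := by
  obtain ⟨t, -, hfin⟩ := hE
  have halg0 : Algebra.IsAlgebraic k⟮t⟯ E := inferInstance
  have halg : Algebra.IsAlgebraic (Algebra.adjoin k ({t} : Set E)) E :=
    (IsFractionRing.comap_isAlgebraic_iff (K := k⟮t⟯)).2 halg0
  have h1 : Algebra.trdeg k E ≤ 1 := by
    have := Algebra.IsAlgebraic.trdeg_le_cardinalMk k ({t} : Set E)
    simpa using this
  have h2 : AlgebraicIndependent k (fun _ : PUnit.{v + 1} => f) :=
    algebraicIndependent_unique_type_iff.2 hf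
  have h3 : IsTranscendenceBasis k (fun _ : PUnit.{v + 1} => f) :=
    h2.isTranscendenceBasis_of_trdeg_le_of_finite (by simpa using h1)
  have h4 := h3.isAlgebraic_field
  have h5 : Set.range (fun _ : PUnit.{v + 1} => f) = {f} := Set.range_const
  rwa [h5] at h4

/-- **The residue field of a nontrivial valuation ring of a function field is algebraic.** -/
lemma exists_monic_lt_one (hE : IsFunctionField k E) (V : ValuationSubring E)
    (hk : ∀ c : k, algebraMap k E c ∈ V) (hV : V ≠ ⊤) (f : E) (hf : f ∈ V) :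
    ∃ P : k[X], P.Monic ∧ V.valuation (aeval f P) < 1 := by
  by_contra hcon
  push Not at hcon
  have hmem : ∀ P : k[X], aeval f P ∈ V := by
    intro P
    rw [aeval_eq_sum_range]
    refine sum_mem (fun i _ => ?_)
    rw [Algebra.smul_def]
    exact mul_mem (hk _) (pow_mem hf i)
  have hval : ∀ P : k[X], P ≠ 0 → V.valuation (aeval f P) = 1 := by
    intro P hP
    refine le_antisymm ((V.valuation_le_one_iff _).2 (hmem P)) ?_
    have h1 := hcon _ (monic_mul_leadingCoeff_inv hP)
    rw [map_mul, map_mul, aeval_C] at h1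
    have h2 : V.valuation (algebraMap k E P.leadingCoeff⁻¹) ≤ 1 :=
      (V.valuation_le_one_iff _).2 (hk _)
    calc (1 : V.ValueGroup) ≤ V.valuation (aeval f P) *
          V.valuation (algebraMap k E P.leadingCoeff⁻¹) := h1
      _ ≤ V.valuation (aeval f P) * 1 := mul_le_mul_right h2 _
      _ = _ := mul_one _
  have htr : Transcendental k f := by
    rintro ⟨P, hP, h0⟩
    have h1 := hval P hP
    rw [h0, map_zero] at h1
    exact zero_ne_one h1
  have halg := isAlgebraic_adjoin_of_transcendental hE htr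
  -- `k(f)` lies in `V`
  have hL : ∀ x : k⟮f⟯, (x : E) ∈ V := by
    intro x
    obtain ⟨P, Q, h1⟩ := (mem_adjoin_simple_iff k (x : E)).1 x.2
    rw [h1]
    by_cases hQ : Q = 0
    · rw [hQ, map_zero, div_zero]; exact V.zero_mem
    rw [← V.valuation_le_one_iff, map_div₀, hval Q hQ, div_one]
    exact (V.valuation_le_one_iff _).2 (hmem P)
  apply hV
  rw [eq_top_iff]
  intro y _
  let φ : k⟮f⟯ →+* V := (algebraMap k⟮f⟯ E).codRestrict V.toSubring hL
  let _ : Algebra k⟮f⟯ V := φ.toAlgebra
  have htow : IsScalarTower k⟮f⟯ V E := IsScalarTower.of_algebraMap_eq (fun x => rfl)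
  have hy : IsIntegral k⟮f⟯ y := (halg.isAlgebraic y).isIntegral
  have hy2 : IsIntegral V y := hy.tower_top
  obtain ⟨z, hz⟩ := IsIntegrallyClosed.isIntegral_iff.mp hy2
  rw [← hz]
  exact z.2

end field

section coarse

variable {M : Type v} [Field M]

/-- the valuation ring of the elements bounded by a power of `π`⁻¹ -/
noncomputable def coarse (O : ValuationSubring M) (π : M) (hπ : π ∈ O) : ValuationSubring M where
  carrier := {y | ∃ N : ℕ, π ^ N * y ∈ O}
  mul_mem' := by
    rintro a b ⟨N, hN⟩ ⟨N', hN'⟩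
    refine ⟨N + N', ?_⟩
    have h : π ^ (N + N') * (a * b) = (π ^ N * a) * (π ^ N' * b) := by ring
    rw [h]
    exact mul_mem hN hN'
  one_mem' := ⟨0, by simp⟩
  add_mem' := by
    rintro a b ⟨N, hN⟩ ⟨N', hN'⟩
    refine ⟨N + N', ?_⟩
    have h : π ^ (N + N') * (a + b) = π ^ N' * (π ^ N * a) + π ^ N * (π ^ N' * b) := by ring
    rw [h]
    exact add_mem (mul_mem (pow_mem hπ _) hN) (mul_mem (pow_mem hπ _) hN')
  zero_mem' := ⟨0, by simp⟩
  neg_mem' := by
    rintro a ⟨N, hN⟩
    refine ⟨N, ?_⟩
    rw [mul_neg]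
    exact neg_mem hN
  mem_or_inv_mem' := by
    intro x
    rcases O.mem_or_inv_mem x with h | h
    · exact Or.inl ⟨0, by simpa using h⟩
    · exact Or.inr ⟨0, by simpa using h⟩

lemma mem_coarse {O : ValuationSubring M} {π : M} {hπ : π ∈ O} {y : M} :
    y ∈ coarse O π hπ ↔ ∃ N : ℕ, π ^ N * y ∈ O := Iff.rfl

end coarse

section padic

variable {p : ℕ} [Fact p.Prime] {k : Type u} [Field k] [Algebra ℚ_[p] k]
  [FiniteDimensional ℚ_[p] k]

/-- every element becomes integral after multiplication by a power of `p` -/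
lemma exists_spec_le (c : k) : ∃ N : ℕ, spectralNorm ℚ_[p] k ((p : k) ^ N * c) ≤ 1 := by
  let inst1 : NontriviallyNormedField k := spectralNorm.nontriviallyNormedField ℚ_[p] k
  have hn : ∀ x : ℚ_[p], ‖algebraMap ℚ_[p] k x‖ = ‖x‖ := fun x => spectralNorm_extends x
  have hp : ‖(p : k)‖ < 1 := by
    rw [← map_natCast (algebraMap ℚ_[p] k), hn]
    exact Padic.norm_p_lt_one
  obtain ⟨N, hN⟩ := exists_pow_lt_of_lt_one (y := ‖(p : k)‖) (x := (1 : ℝ) / (‖c‖ + 1))
    (by positivity) hp
  refine ⟨N, ?_⟩
  show ‖(p : k) ^ N * c‖ ≤ 1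
  rw [norm_mul, norm_pow]
  rw [lt_div_iff₀ (by positivity)] at hN
  nlinarith [norm_nonneg c, norm_nonneg (p : k), pow_nonneg (norm_nonneg (p : k)) N]

omit [FiniteDimensional ℚ_[p] k] in
lemma spec_p_le : spectralNorm ℚ_[p] k (p : k) ≤ 1 := by
  rw [← map_natCast (algebraMap ℚ_[p] k), spectralNorm_extends]
  exact Padic.norm_p_lt_one.le

end padic

/-- if the stable valuation ring `O` has nonzero elements of value below all powers of `p`, then
the section is geometric -/
theorem geometric_of_unbounded {p : ℕ} [Fact p.Prime] {k : Type u} {K : Type v} [Field k]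
    [Algebra ℚ_[p] k] [FiniteDimensional ℚ_[p] k] [Field K] [Algebra k K]
    (hK : IsFunctionField k K) (s : Section k K) (O : ValuationSubring (maxUnr k K))
    (hconst : ∀ c : k, algebraMap k (maxUnr k K) c ∈ O ↔ spectralNorm ℚ_[p] k c ≤ 1)
    (hst : ∀ (σ : GalOf (constClosure k K)) (x y : maxUnr k K), (s.hom σ).Maps x y →
      x ∈ O → y ∈ O)
    (x₀ : maxUnr k K) (hx₀ : x₀ ≠ 0)
    (hx₀n : ∀ N : ℕ, O.valuation x₀ < O.valuation (p : maxUnr k K) ^ N) : s.IsGeometric := by
  classical
  have hchar : CharZero k := charZero_of_injective_algebraMap (algebraMap ℚ_[p] k).injective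
  have hpp : p.Prime := Fact.out
  have hs := s.isSection
  have hpO : (p : maxUnr k K) ∈ O := by
    have h1 := (hconst (p : k)).2 spec_p_le
    rwa [map_natCast] at h1
  set W := coarse O (p : maxUnr k K) hpO with hW
  have hWk : ∀ c : k, algebraMap k (maxUnr k K) c ∈ W := by
    intro c
    obtain ⟨N, hN⟩ := exists_spec_le (p := p) c
    rw [hW, mem_coarse]
    refine ⟨N, ?_⟩
    have h1 := (hconst ((p : k) ^ N * c)).2 hN
    rwa [map_mul, map_pow, map_natCast] at h1
  have hWst : ∀ (σ : Gal(constClosure k K/k)) (x : maxUnr k K), x ∈ W → s.toHom σ x ∈ W := by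
    intro σ x hx
    rw [hW, mem_coarse] at hx ⊢
    obtain ⟨N, hN⟩ := hx
    refine ⟨N, ?_⟩
    have h1 := hst σ _ (s.toHom σ ((p : maxUnr k K) ^ N * x)) ⟨_, rfl, rfl⟩ hN
    rwa [map_mul, map_pow, map_natCast] at h1
  have hWst' : ∀ (σ : Gal(constClosure k K/k)) (x : maxUnr k K), s.toHom σ x ∈ W → x ∈ W := by
    intro σ x hx
    have h1 := hWst σ⁻¹ _ hx
    rw [← AlgEquiv.mul_apply, ← map_mul, inv_mul_cancel, map_one, AlgEquiv.one_apply] at h1
    exact h1
  have hWlt : ∀ (σ : Gal(constClosure k K/k)) (x : maxUnr k K), W.valuation x < 1 →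
      W.valuation (s.toHom σ x) < 1 := by
    intro σ x hx
    by_contra hcon
    rw [not_lt] at hcon
    have hne : s.toHom σ x ≠ 0 := by
      intro h0
      rw [h0, map_zero] at hcon
      exact absurd hcon (not_le.2 zero_lt_one)
    have h1 : (s.toHom σ x)⁻¹ ∈ W := by
      rw [← W.valuation_le_one_iff, map_inv₀]
      exact inv_le_one_of_one_le₀ hcon
    rw [← map_inv₀] at h1
    have h2 := hWst' σ _ h1
    rw [← W.valuation_le_one_iff, map_inv₀] at h2
    have hx0 : 0 < W.valuation x := by
      rw [zero_lt_iff]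
      intro h0
      rw [(map_eq_zero _).1 h0, map_zero] at hne
      exact hne rfl
    exact absurd ((inv_le_one₀ hx0).1 h2) (not_le.2 hx)
  have hx₀W : x₀⁻¹ ∉ W := by
    rw [hW, mem_coarse]
    rintro ⟨N, hN⟩
    rw [← O.valuation_le_one_iff, map_mul, map_pow, map_inv₀] at hN
    have hpos : 0 < O.valuation x₀ := zero_lt_iff.2 ((_root_.map_ne_zero _).2 hx₀)
    rw [mul_inv_le_iff₀ hpos, one_mul] at hN
    exact absurd (hx₀n N) (not_lt.2 hN)
  set V : ValuationSubring K := W.comap (algebraMap K (maxUnr k K)) with hV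
  have hVk : ∀ c : k, algebraMap k K c ∈ V := by
    intro c
    rw [hV, ValuationSubring.mem_comap, ← IsScalarTower.algebraMap_apply]
    exact hWk c
  have hVtop : V ≠ ⊤ := by
    intro htop
    apply hx₀W
    have hK' : ∀ x : K, algebraMap K (maxUnr k K) x ∈ W := by
      intro x
      have : x ∈ V := by rw [htop]; trivial
      rwa [hV, ValuationSubring.mem_comap] at this
    let φ : K →+* W := (algebraMap K (maxUnr k K)).codRestrict W.toSubring hK'
    let _ : Algebra K W := φ.toAlgebra
    have htow : IsScalarTower K W (maxUnr k K) := IsScalarTower.of_algebraMap_eq (fun x => rfl)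
    have h1 : IsIntegral K x₀⁻¹ := Algebra.IsIntegral.isIntegral _
    have h2 : IsIntegral W x₀⁻¹ := h1.tower_top
    obtain ⟨z, hz⟩ := IsIntegrallyClosed.isIntegral_iff.mp h2
    rw [← hz]
    exact z.2
  refine ⟨W, ⟨⟨hVk, hK.dvr V hVk hVtop⟩, ?_⟩, ?_⟩
  · intro f hf
    obtain ⟨P, hP, hPf⟩ := exists_monic_lt_one hK V hVk hVtop f hf
    -- the polynomial splits in constants
    set x : maxUnr k K := algebraMap K (maxUnr k K) f with hx
    have hPx : W.valuation (aeval x P) < 1 := by
      rw [hx, aeval_algebraMap_apply]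
      rwa [hV, (comap_isEquiv (F := K) W).lt_one_iff_lt_one, Valuation.comap_apply] at hPf
    have htow2 : IsScalarTower k (maxUnr k K) (AlgebraicClosure K) :=
      IsScalarTower.of_algebraMap_eq (fun _ => rfl)
    have hsplit : (P.map (algebraMap k (maxUnr k K))).Splits := by
      refine Splits.of_splits_map_of_injective
        (i := algebraMap (maxUnr k K) (AlgebraicClosure K)) (algebraMap (maxUnr k K) (AlgebraicClosure K)).injective
        (IsAlgClosed.splits _) ?_
      intro a ha
      rw [Polynomial.map_map, ← IsScalarTower.algebraMap_eq] at ha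
      have h1 : aeval a P = 0 := by
        have h2 := (mem_roots'.1 ha).2
        rwa [IsRoot.def, eval_map_algebraMap] at h2
      exact ⟨⟨a, mem_maxUnr_of_const _ ⟨P, hP, by rwa [← aeval_def]⟩⟩, rfl⟩
    rw [hsplit.aeval_eq_prod_aroots_of_monic hP] at hPx
    obtain ⟨c, hc, hcx⟩ : ∃ c : maxUnr k K, IsIntegral k c ∧ W.valuation (x - c) < 1 := by
      by_contra hcon
      push Not at hcon
      refine absurd hPx (not_lt.2 ?_)
      refine Multiset.prod_induction (fun y => 1 ≤ W.valuation y) _ ?_ (by simp) ?_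
      · intro a b ha hb
        rw [map_mul]
        exact one_le_mul ha hb
      · intro a ha
        obtain ⟨r, hr, rfl⟩ := Multiset.mem_map.1 ha
        refine hcon r ⟨P, hP, ?_⟩
        have h2 := (mem_aroots'.1 hr).2
        rwa [← aeval_def]
    have hcfix : ∀ σ, s.toHom σ c = c := by
      intro σ
      have h1 := hWlt σ _ hcx
      rw [map_sub, hx, AlgEquiv.commutes, ← hx] at h1
      by_contra hne
      have hint : IsIntegral k (s.toHom σ c - c) := by
        refine IsIntegral.sub ?_ hc
        exact hc.map ((s.toHom σ : maxUnr k K →ₐ[K] maxUnr k K).restrictScalars k)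
      have h2 := val_alg_gen hWk hint (sub_ne_zero.2 hne)
      have h3 : s.toHom σ c - c = (x - c) - (x - s.toHom σ c) := by ring
      rw [h3] at h2
      have h4 := Valuation.map_sub_lt W.valuation hcx h1
      exact absurd h2 h4.ne
    obtain ⟨d, hd⟩ := (base_top hs).ex c hc (fun σ _ => hcfix σ)
    refine ⟨d, ?_⟩
    rw [(comap_isEquiv (F := K) W).lt_one_iff_lt_one, Valuation.comap_apply, map_sub,
      ← IsScalarTower.algebraMap_apply, hd]
    exact hcx
  · intro σ x y hxy hx
    obtain ⟨x', hx', hy'⟩ := hxy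
    have h1 : x' = x := Subtype.ext hx'
    have h2 : s.toHom σ x = y := Subtype.ext (by rw [← h1]; exact hy')
    rw [← h2]
    exact hWst σ x hx

end P025H206
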