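import Vale.Agent.P025.R2.H206.CuspV
import Vale.Agent.P025.R2.H206.Unb
import Vale.Agent.P025.R2.H206.Bounded

/-! # Valuative sections over sufficiently ramified covers are geometric -/

open IntermediateField Polynomial

namespace P025H206

open P025H641 P025H440

universe u v w

section net

variable {p : ℕ} [Fact p.Prime] {k : Type u} [Field k] [Algebra ℚ_[p] k]
  [FiniteDimensional ℚ_[p] k]

/-- finite nets -/
lemma exists_net (R δ : ℝ) (hδ : 0 < δ) : ∃ B : Finset k, 0 ∈ B ∧
    ∀ x : k, spectralNorm ℚ_[p] k x ≤ R → ∃ b ∈ B, spectralNorm ℚ_[p] k (x - b) ≤ δ := by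
  classical
  let inst1 : NontriviallyNormedField k := spectralNorm.nontriviallyNormedField ℚ_[p] k
  have hproper : ProperSpace k := by
    let _ : NormedAlgebra ℚ_[p] k := spectralNorm.normedAlgebra ℚ_[p] k
    exact FiniteDimensional.proper ℚ_[p] k
  obtain ⟨T, -, hT2⟩ := (isCompact_closedBall (0 : k) R).elim_nhds_subcover
    (fun x => Metric.closedBall x δ) (fun x _ => Metric.closedBall_mem_nhds x hδ)
  refine ⟨insert 0 T, Finset.mem_insert_self _ _, fun x hx => ?_⟩
  have h1 := hT2 (show x ∈ Metric.closedBall (0 : k) R by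
    rw [mem_closedBall_zero_iff]; exact hx)
  simp only [Set.mem_iUnion] at h1
  obtain ⟨t, ht, h2⟩ := h1
  rw [Metric.mem_closedBall, dist_eq_norm] at h2
  exact ⟨t, Finset.mem_insert_of_mem ht, h2⟩

end net

section core

variable {p : ℕ} [Fact p.Prime] {k : Type u} [Field k] [Algebra ℚ_[p] k]
  [FiniteDimensional ℚ_[p] k] {k' : Type u} [Field k'] [Algebra k k'] [Algebra ℚ_[p] k']
  [IsScalarTower ℚ_[p] k k'] [FiniteDimensional k k'] [FiniteDimensional ℚ_[p] k']

/-- the theorem with an auxiliary finite extension containing the roots of unity -/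
theorem valuative_core (hp2 : p ≠ 2) {z : k'} (hz : IsPrimitiveRoot z p) (E : Type v) [Field E]
    [Algebra k E] (hE : IsFunctionField k E) :
    ∃ (S : Finset E) (m : ℕ), (∀ g ∈ S, g ≠ 0) ∧ 0 < m ∧
      ∀ (K : Type w) [Field K] [Algebra k K] [Algebra E K] [IsScalarTower k E K],
        IsFunctionField k K → IsRamifiedOver m k K S → ∀ (s : Section k K)
          (O : ValuationSubring (maxUnr k K)),
          (∀ c : k, algebraMap k (maxUnr k K) c ∈ O ↔ spectralNorm ℚ_[p] k c ≤ 1) →
          (∀ (σ : GalOf (constClosure k K)) (x y : maxUnr k K), (s.hom σ).Maps x y →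
            x ∈ O → y ∈ O) → s.IsGeometric := by
  classical
  have hpp : p.Prime := Fact.out
  have hchar : CharZero k := charZero_of_injective_algebraMap (algebraMap ℚ_[p] k).injective
  have hchar' : CharZero k' := charZero_of_injective_algebraMap (algebraMap k k').injective
  obtain ⟨N, m, hm, hbc⟩ := bounded_contra hp2 k' hz
  have hpR : (0 : ℝ) < p := by exact_mod_cast hpp.pos
  obtain ⟨B, hB0, hB⟩ := exists_net (p := p) (k := k') ((p : ℝ) ^ N) ((p : ℝ) ^ N)⁻¹
    (inv_pos.2 (pow_pos hpR _))
  obtain ⟨T, hT, -⟩ := id hE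
  refine ⟨insert T (B.image (fun b => aeval T (minpoly k b))), m, ?_, hm, ?_⟩
  · intro g hg
    rcases Finset.mem_insert.1 hg with rfl | hg
    · rintro rfl
      exact hT isAlgebraic_zero
    · obtain ⟨b, -, rfl⟩ := Finset.mem_image.1 hg
      intro h0
      exact hT ⟨minpoly k b, minpoly.ne_zero (Algebra.IsAlgebraic.isAlgebraic b).isIntegral, h0⟩
  intro K _ _ _ _ hK hram s O hconst hst
  have hs := s.isSection
  -- the embedding of `k'`
  let e : k' →ₐ[k] AlgebraicClosure K := IsAlgClosed.lift
  let ι : k' →+* maxUnr k K := (e : k' →+* AlgebraicClosure K).codRestrict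
    (maxUnr k K).toSubfield.toSubring (fun c => mem_maxUnr_of_const _
      ((Algebra.IsAlgebraic.isAlgebraic (R := k) c).isIntegral.map e))
  let _ : Algebra k' (maxUnr k K) := ι.toAlgebra
  have htow : IsScalarTower k k' (maxUnr k K) := IsScalarTower.of_algebraMap_eq (fun c => by
    apply Subtype.ext
    exact (e.commutes c).symm)
  have hcusp : ∀ b ∈ B, b ∈ Cusp k' m (algebraMap K (maxUnr k K) (algebraMap E K T)) := by
    intro b hb
    exact mem_cusp hm hram T (Finset.mem_insert_self _ _) b
      (Finset.mem_insert_of_mem (Finset.mem_image_of_mem _ hb))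
  have hctx : Ctx p s.toHom (fixC k' s.toHom) k' O := by
    refine ⟨hs, base_fixC k' hs, exists_fin k', fun c => const_iff hconst c, ?_⟩
    intro σ _ x hx
    exact hst σ x _ ⟨x, rfl, rfl⟩ hx
  by_cases hbd : ∀ x : maxUnr k K, x ≠ 0 → ∃ N : ℕ,
      O.valuation (p : maxUnr k K) ^ N ≤ O.valuation x
  · refine (hbc hctx (algebraMap K (maxUnr k K) (algebraMap E K T)) (fun σ _ =>
      AlgEquiv.commutes _ _) ?_ hbd (hcusp 0 hB0) (fun x hx => ?_)).elim
    · intro c hc
      obtain ⟨P, hP0, hP⟩ := Algebra.IsAlgebraic.isAlgebraic (R := k) c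
      refine hT ⟨P, hP0, ?_⟩
      apply (algebraMap E K).injective
      apply (algebraMap K (maxUnr k K)).injective
      rw [map_zero, map_zero, ← aeval_algebraMap_apply, ← aeval_algebraMap_apply, hc,
        aeval_algebraMap_apply, hP, map_zero]
    · obtain ⟨b, hb, hxb⟩ := hB x hx
      exact ⟨b, hcusp b hb, hxb⟩
  · push Not at hbd
    obtain ⟨x₀, hx₀, hx₀n⟩ := hbd
    exact geometric_of_unbounded hK s O hconst hst x₀ hx₀ hx₀n

end core

/-- **Valuative sections.** Let `k` be a `p`-adic field, `p` odd. Every function field `E / k`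
contains a finite set `S`, and there is `m > 0`, such that over every function field `K / E`
whose ramification indices over the divisor of `S` are divisible by `m`, every section of
`Gal(maxUnr k K / K) → Gal(constClosure k K / k)` which stabilizes a valuation ring of
`maxUnr k K` above the valuation ring of `k` is geometric. -/
theorem every_curve_valuative {p : ℕ} [Fact p.Prime] (hp2 : p ≠ 2) (k : Type u) [Field k]
    [Algebra ℚ_[p] k] [FiniteDimensional ℚ_[p] k] (E : Type v) [Field E] [Algebra k E]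
    (hE : IsFunctionField k E) :
    ∃ (S : Finset E) (m : ℕ), (∀ g ∈ S, g ≠ 0) ∧ 0 < m ∧
      ∀ (K : Type w) [Field K] [Algebra k K] [Algebra E K] [IsScalarTower k E K],
        IsFunctionField k K → IsRamifiedOver m k K S → ∀ (s : Section k K)
          (O : ValuationSubring (maxUnr k K)),
          (∀ c : k, algebraMap k (maxUnr k K) c ∈ O ↔ spectralNorm ℚ_[p] k c ≤ 1) →
          (∀ (σ : GalOf (constClosure k K)) (x y : maxUnr k K), (s.hom σ).Maps x y →
            x ∈ O → y ∈ O) → s.IsGeometric := by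
  have hpp : p.Prime := Fact.out
  have hchar : CharZero k := charZero_of_injective_algebraMap (algebraMap ℚ_[p] k).injective
  -- adjoin the roots of unity
  obtain ⟨ζ, hζroot⟩ := IsAlgClosed.exists_root (cyclotomic p (AlgebraicClosure k))
    (degree_cyclotomic_pos p _ hpp.pos).ne'
  have hnz : NeZero ((p : ℕ) : AlgebraicClosure k) := ⟨by exact_mod_cast hpp.ne_zero⟩
  have hζ : IsPrimitiveRoot ζ p := isRoot_cyclotomic_iff.1 hζroot
  have hintk : IsIntegral k ζ :=
    isIntegral_of_pow' hpp.pos (by rw [hζ.pow_eq_one]; exact isIntegral_one)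
  have hfin1 : FiniteDimensional k k⟮ζ⟯ := IntermediateField.adjoin.finiteDimensional hintk
  have hfin2 : FiniteDimensional ℚ_[p] k⟮ζ⟯ := FiniteDimensional.trans ℚ_[p] k k⟮ζ⟯
  have hz : IsPrimitiveRoot (⟨ζ, IntermediateField.mem_adjoin_simple_self k ζ⟩ : k⟮ζ⟯) p :=
    IsPrimitiveRoot.of_map_of_injective (f := k⟮ζ⟯.val) hζ Subtype.val_injective
  exact valuative_core hp2 hz E hE

end P025H206
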