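import Vale.Agent.P025.R2.H206.Unb

/-! # A stable valuation ring which is trivial on the constants gives a geometric section -/

open IntermediateField Polynomial

namespace P025H206

open P025H641

universe u v

/-- a proper valuation ring of the maximal unramified extension which contains `k` and is stable
under the section `s` gives a place of `K` with residue field `k`: the section is geometric, and
`W` itself is the witness -/
theorem geometric_of_stable {k : Type u} {K : Type v} [Field k] [CharZero k] [Field K]
    [Algebra k K] (hK : IsFunctionField k K) (s : Section k K) (W : ValuationSubring (maxUnr k K))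
    (hWk : ∀ c : k, algebraMap k (maxUnr k K) c ∈ W) (hWtop : W ≠ ⊤)
    (hst : ∀ (σ : GalOf (constClosure k K)) (x y : maxUnr k K), (s.hom σ).Maps x y →
      x ∈ W → y ∈ W) : IsRatPlace k K (W.comap (algebraMap K (maxUnr k K))) := by
  classical
  have hs := s.isSection
  have hWst : ∀ (σ : Gal(constClosure k K/k)) (x : maxUnr k K), x ∈ W → s.toHom σ x ∈ W := by
    intro σ x hx
    exact hst σ _ (s.toHom σ x) ⟨_, rfl, rfl⟩ hx
  have hWst' : ∀ (σ : Gal(constClosure k K/k)) (x : maxUnr k K), s.toHom σ x ∈ W → x ∈ W := by
    intro σ x hx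
    have h1 := hWst σ⁻¹ _ hx
    rw [← AlgEquiv.mul_apply, ← map_mul, inv_mul_cancel, map_one, AlgEquiv.one_apply] at h1
    exact h1
  have hWlt : ∀ (σ : Gal(constClosure k K/k)) (x : maxUnr k K), W.valuation x < 1 →
      W.valuation (s.toHom σ x) < 1 := by
    intro σ x hx
    by_contra hcon
    rw [not_lt] at hcon
    have hne : s.toHom σ x ≠ 0 := by
      intro h0
      rw [h0, map_zero] at hcon
      exact absurd hcon (not_le.2 zero_lt_one)
    have h1 : (s.toHom σ x)⁻¹ ∈ W := by
      rw [← W.valuation_le_one_iff, map_inv₀]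
      exact inv_le_one_of_one_le₀ hcon
    rw [← map_inv₀] at h1
    have h2 := hWst' σ _ h1
    rw [← W.valuation_le_one_iff, map_inv₀] at h2
    have hx0 : 0 < W.valuation x := by
      rw [zero_lt_iff]
      intro h0
      rw [(map_eq_zero _).1 h0, map_zero] at hne
      exact hne rfl
    exact absurd ((inv_le_one₀ hx0).1 h2) (not_le.2 hx)
  obtain ⟨x₀, hx₀W⟩ : ∃ x : maxUnr k K, x⁻¹ ∉ W := by
    by_contra hcon
    push Not at hcon
    apply hWtop
    ext x
    simp only [ValuationSubring.mem_top, iff_true]
    have := hcon x⁻¹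
    rwa [inv_inv] at this
  set V : ValuationSubring K := W.comap (algebraMap K (maxUnr k K)) with hV
  have hVk : ∀ c : k, algebraMap k K c ∈ V := by
    intro c
    rw [hV, ValuationSubring.mem_comap, ← IsScalarTower.algebraMap_apply]
    exact hWk c
  have hVtop : V ≠ ⊤ := by
    intro htop
    apply hx₀W
    have hK' : ∀ x : K, algebraMap K (maxUnr k K) x ∈ W := by
      intro x
      have : x ∈ V := by rw [htop]; trivial
      rwa [hV, ValuationSubring.mem_comap] at this
    let φ : K →+* W := (algebraMap K (maxUnr k K)).codRestrict W.toSubring hK'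
    let _ : Algebra K W := φ.toAlgebra
    have htow : IsScalarTower K W (maxUnr k K) := IsScalarTower.of_algebraMap_eq (fun x => rfl)
    have h1 : IsIntegral K x₀⁻¹ := Algebra.IsIntegral.isIntegral _
    have h2 : IsIntegral W x₀⁻¹ := h1.tower_top
    obtain ⟨z, hz⟩ := IsIntegrallyClosed.isIntegral_iff.mp h2
    rw [← hz]
    exact z.2
  refine ⟨⟨hVk, hK.dvr V hVk hVtop⟩, ?_⟩
  · intro f hf
    obtain ⟨P, hP, hPf⟩ := exists_monic_lt_one hK V hVk hVtop f hf
    -- the polynomial splits in constants
    set x : maxUnr k K := algebraMap K (maxUnr k K) f with hx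
    have hPx : W.valuation (aeval x P) < 1 := by
      rw [hx, aeval_algebraMap_apply]
      rwa [hV, (comap_isEquiv (F := K) W).lt_one_iff_lt_one, Valuation.comap_apply] at hPf
    have htow2 : IsScalarTower k (maxUnr k K) (AlgebraicClosure K) :=
      IsScalarTower.of_algebraMap_eq (fun _ => rfl)
    have hsplit : (P.map (algebraMap k (maxUnr k K))).Splits := by
      refine Splits.of_splits_map_of_injective
        (i := algebraMap (maxUnr k K) (AlgebraicClosure K)) (algebraMap (maxUnr k K) (AlgebraicClosure K)).injective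
        (IsAlgClosed.splits _) ?_
      intro a ha
      rw [Polynomial.map_map, ← IsScalarTower.algebraMap_eq] at ha
      have h1 : aeval a P = 0 := by
        have h2 := (mem_roots'.1 ha).2
        rwa [IsRoot.def, eval_map_algebraMap] at h2
      exact ⟨⟨a, mem_maxUnr_of_const _ ⟨P, hP, by rwa [← aeval_def]⟩⟩, rfl⟩
    rw [hsplit.aeval_eq_prod_aroots_of_monic hP] at hPx
    obtain ⟨c, hc, hcx⟩ : ∃ c : maxUnr k K, IsIntegral k c ∧ W.valuation (x - c) < 1 := by
      by_contra hcon
      push Not at hcon
      refine absurd hPx (not_lt.2 ?_)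
      refine Multiset.prod_induction (fun y => 1 ≤ W.valuation y) _ ?_ (by simp) ?_
      · intro a b ha hb
        rw [map_mul]
        exact one_le_mul ha hb
      · intro a ha
        obtain ⟨r, hr, rfl⟩ := Multiset.mem_map.1 ha
        refine hcon r ⟨P, hP, ?_⟩
        have h2 := (mem_aroots'.1 hr).2
        rwa [← aeval_def]
    have hcfix : ∀ σ, s.toHom σ c = c := by
      intro σ
      have h1 := hWlt σ _ hcx
      rw [map_sub, hx, AlgEquiv.commutes, ← hx] at h1
      by_contra hne
      have hint : IsIntegral k (s.toHom σ c - c) := by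
        refine IsIntegral.sub ?_ hc
        exact hc.map ((s.toHom σ : maxUnr k K →ₐ[K] maxUnr k K).restrictScalars k)
      have h2 := val_alg_gen hWk hint (sub_ne_zero.2 hne)
      have h3 : s.toHom σ c - c = (x - c) - (x - s.toHom σ c) := by ring
      rw [h3] at h2
      have h4 := Valuation.map_sub_lt W.valuation hcx h1
      exact absurd h2 h4.ne
    obtain ⟨d, hd⟩ := (base_top hs).ex c hc (fun σ _ => hcfix σ)
    refine ⟨d, ?_⟩
    rw [(comap_isEquiv (F := K) W).lt_one_iff_lt_one, Valuation.comap_apply, map_sub,
      ← IsScalarTower.algebraMap_apply, hd]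
    exact hcx

/-- the section is geometric -/
theorem isGeometric_of_stable {k : Type u} {K : Type v} [Field k] [CharZero k] [Field K]
    [Algebra k K] (hK : IsFunctionField k K) (s : Section k K) (W : ValuationSubring (maxUnr k K))
    (hWk : ∀ c : k, algebraMap k (maxUnr k K) c ∈ W) (hWtop : W ≠ ⊤)
    (hst : ∀ (σ : GalOf (constClosure k K)) (x y : maxUnr k K), (s.hom σ).Maps x y →
      x ∈ W → y ∈ W) : s.IsGeometric :=
  ⟨W, geometric_of_stable hK s W hWk hWtop hst, hst⟩

end P025H206
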